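import Vale.Agent.P331.H489.Ex

/-!
# Charging: the smaller of two bounds, Markov over sub-labels, union over levels and targets
-/

set_option autoImplicit false
set_option linter.unusedSectionVars false

namespace Vale.Agent.P331.H873

open Finset Vale.Agent.P331.H489

/-! ## Real numbers -/

/-- The smaller of a constant bound and a bound by a high power of `J` is at most `ε J`. -/
theorem charge_min {P A B J c ε : ℝ} {q : ℕ} (hq : 1 ≤ q) (hJ : 0 ≤ J) (hB : 0 ≤ B)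
    (hε : 0 ≤ ε) (h1 : P ≤ A) (h2 : P ≤ B * J ^ q) (hA : A ≤ ε * c)
    (hBc : B * c ^ (q - 1) ≤ ε) : P ≤ ε * J := by
  rcases le_total c J with h | h
  · exact h1.trans (hA.trans (mul_le_mul_of_nonneg_left h hε))
  · refine h2.trans ?_
    obtain ⟨k, rfl⟩ : ∃ k, q = k + 1 := ⟨q - 1, by omega⟩
    rw [Nat.add_sub_cancel] at hBc
    calc B * J ^ (k + 1) = (B * J ^ k) * J := by ring
      _ ≤ ε * J := by
        refine mul_le_mul_of_nonneg_right (le_trans ?_ hBc) hJ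
        exact mul_le_mul_of_nonneg_left (pow_le_pow_left₀ hJ h k) hB

/-- The same with `c = ε = e^(-m/2)`, `A = e^(-m)`. -/
theorem charge_exp {P B J m : ℝ} {q : ℕ} (hq : 1 ≤ q) (hJ : 0 ≤ J) (hB : 0 ≤ B)
    (h1 : P ≤ Real.exp (-m)) (h2 : P ≤ B * J ^ q)
    (hBc : B ≤ Real.exp (((q : ℝ) - 2) * m / 2)) : P ≤ Real.exp (-m / 2) * J := by
  refine charge_min hq hJ hB (Real.exp_nonneg _) h1 h2 (c := Real.exp (-m / 2)) ?_ ?_
  · rw [← Real.exp_add]
    exact le_of_eq (congrArg _ (by ring))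
  · obtain ⟨k, rfl⟩ : ∃ k, q = k + 1 := ⟨q - 1, by omega⟩
    rw [Nat.add_sub_cancel, ← Real.exp_nat_mul]
    refine (mul_le_mul_of_nonneg_right hBc (Real.exp_nonneg _)).trans ?_
    rw [← Real.exp_add]
    refine Real.exp_le_exp.2 (le_of_eq ?_)
    push_cast
    ring

/-- `∑_(j=1)^n e^(-m_j/2) ≤ 2 e^(-m_1/2)` if `m_(j+1) ≥ m_j + 2`. -/
theorem sum_exp_le {m : ℕ → ℝ} (h : ∀ j, m j + 2 ≤ m (j + 1)) (n : ℕ) :
    ∑ j ∈ Icc 1 n, Real.exp (-m j / 2) ≤ 2 * Real.exp (-m 1 / 2) := by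
  have h1 : ∀ j : ℕ, Real.exp (-m (j + 1) / 2) ≤ Real.exp (-m 1 / 2) * (1 / 2) ^ j := by
    intro j
    induction j with
    | zero => simp
    | succ j ih =>
      have h2 : Real.exp (-m (j + 1 + 1) / 2) ≤ Real.exp (-m (j + 1) / 2) * Real.exp (-1) := by
        rw [← Real.exp_add]
        refine Real.exp_le_exp.2 ?_
        have := h (j + 1)
        linarith
      have h3 : Real.exp (-1) ≤ 1 / 2 := by
        rw [Real.exp_neg]
        have : (2 : ℝ) ≤ Real.exp 1 := by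
          have := Real.add_one_le_exp (1 : ℝ)
          linarith
        rw [one_div]
        exact inv_anti₀ (by norm_num) this
      calc Real.exp (-m (j + 1 + 1) / 2) ≤ Real.exp (-m (j + 1) / 2) * Real.exp (-1) := h2
        _ ≤ (Real.exp (-m 1 / 2) * (1 / 2) ^ j) * (1 / 2) := by
          exact mul_le_mul ih h3 (Real.exp_nonneg _) (by positivity)
        _ = Real.exp (-m 1 / 2) * (1 / 2) ^ (j + 1) := by ring
  have h2 : ∑ j ∈ Icc 1 n, Real.exp (-m j / 2) =
      ∑ j ∈ range n, Real.exp (-m (j + 1) / 2) := by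
    rw [Finset.range_eq_Ico, Finset.sum_Ico_add' (fun j => Real.exp (-m j / 2)) 0 n 1]
    rfl
  rw [h2]
  calc ∑ j ∈ range n, Real.exp (-m (j + 1) / 2)
      ≤ ∑ j ∈ range n, Real.exp (-m 1 / 2) * (1 / 2) ^ j := sum_le_sum fun j _ => h1 j
    _ = Real.exp (-m 1 / 2) * ∑ j ∈ range n, (1 / 2 : ℝ) ^ j := by rw [mul_sum]
    _ ≤ Real.exp (-m 1 / 2) * 2 := by
      refine mul_le_mul_of_nonneg_left ?_ (Real.exp_nonneg _)
      have h4 : ∀ k : ℕ, ∑ j ∈ range k, (1 / 2 : ℝ) ^ j = 2 - 2 * (1 / 2) ^ k := by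
        intro k
        induction k with
        | zero => simp
        | succ k ih => rw [sum_range_succ, ih]; ring
      rw [h4]
      have : (0 : ℝ) ≤ 2 * (1 / 2) ^ n := by positivity
      linarith
    _ = 2 * Real.exp (-m 1 / 2) := by ring

/-! ## Labels -/

section

variable {E L C : Type*} [Fintype E] [DecidableEq E] [Fintype L] [DecidableEq L]
  [Fintype C] [DecidableEq C]

/-- The label of one element is independent of everything that does not depend on it. -/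
theorem EX_indep (e : E) (l₀ : L) (w : E → L → ℝ) (hw : ∑ l, w e l = 1) (F : (E → L) → ℝ)
    (hF : ∀ ω l, F (Function.update ω e l) = F ω) :
    EX w (fun ω => if ω e = l₀ then F ω else 0) = w e l₀ * EX w F := by
  rw [EX_cond e l₀ l₀, EX_split e l₀ w F]
  simp only [hF]
  rw [← sum_mul, hw, one_mul]

/-- Markov for the conditional probability of a sub-label event. -/
theorem EX_markov {w : E → L → ℝ} (hw : ∀ e l, 0 ≤ w e l) {g : (E → L) → ℝ}
    (hg : ∀ ω, 0 ≤ g ω) {η : ℝ} (hη : 0 < η) (A : (E → L) → Prop) [DecidablePred A]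
    (hA : ∀ ω, A ω → η ≤ g ω) : EX w (fun ω => if A ω then 1 else 0) ≤ η⁻¹ * EX w g := by
  rw [← EX_mul]
  refine EX_mono hw fun ω => ?_
  split_ifs with h
  · calc (1 : ℝ) = η⁻¹ * η := by rw [inv_mul_cancel₀ hη.ne']
      _ ≤ η⁻¹ * g ω := mul_le_mul_of_nonneg_left (hA ω h) (inv_nonneg.2 hη.le)
  · exact mul_nonneg (inv_nonneg.2 hη.le) (hg ω)

/-- Monotonicity for events. -/
theorem EX_event_mono {w : E → L → ℝ} (hw : ∀ e l, 0 ≤ w e l) (A B : (E → L) → Prop)
    [DecidablePred A] [DecidablePred B] (h : ∀ ω, A ω → B ω) :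
    EX w (fun ω => if A ω then (1 : ℝ) else 0) ≤ EX w (fun ω => if B ω then 1 else 0) := by
  refine EX_mono hw fun ω => ?_
  by_cases hA : A ω
  · rw [if_pos hA, if_pos (h ω hA)]
  · rw [if_neg hA]
    split_ifs
    · exact zero_le_one
    · exact le_rfl

/-- Union bound. -/
theorem EX_union {w : E → L → ℝ} (hw : ∀ e l, 0 ≤ w e l) (s : Finset ℕ)
    (A : (E → L) → Prop) [DecidablePred A] (B : ℕ → (E → L) → Prop)
    [∀ j, DecidablePred (B j)] (h : ∀ ω, A ω → ∃ j ∈ s, B j ω) :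
    EX w (fun ω => if A ω then (1 : ℝ) else 0) ≤
      ∑ j ∈ s, EX w (fun ω => if B j ω then 1 else 0) := by
  rw [← EX_sum]
  refine EX_mono hw fun ω => ?_
  by_cases hA : A ω
  · rw [if_pos hA]
    obtain ⟨j, hj, hB⟩ := h ω hA
    calc (1 : ℝ) = if B j ω then 1 else 0 := by rw [if_pos hB]
      _ ≤ ∑ j ∈ s, if B j ω then (1 : ℝ) else 0 := by
        refine single_le_sum (f := fun j => if B j ω then (1 : ℝ) else 0) (fun i _ => ?_) hj
        split_ifs
        · exact zero_le_one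
        · exact le_rfl
  · rw [if_neg hA]
    refine sum_nonneg fun j _ => ?_
    split_ifs
    · exact zero_le_one
    · exact le_rfl

/-- **Charge over levels and targets.** The event `Bl z` (target `z` has label `v` and some level
`j` is bad) has total probability at most `p / 2`. -/
theorem charge_sum {w : E → L → ℝ} (hw : ∀ e l, 0 ≤ w e l) (hw1 : ∀ e, ∑ l, w e l = 1)
    (v : L) {p Θ : ℝ} (hΘ : 0 < Θ) (hp0 : 0 ≤ p) (hp : ∀ e, w e v = p) (s : Finset E) (n : ℕ) (J : E → ℝ)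
    (ε : ℕ → ℝ) (hJ0 : ∀ z, 0 ≤ J z) (hJ : ∑ z ∈ s, J z ≤ 1 / Θ)
    (hsum : ∑ j ∈ Icc 1 n, ε j ≤ Θ / 2)
    (Bl : E → (E → L) → Prop) [∀ z, DecidablePred (Bl z)]
    (Ev : ℕ → E → (E → L) → Prop) [∀ j z, DecidablePred (Ev j z)]
    (hBl : ∀ z ∈ s, ∀ ω, Bl z ω → ω z = v ∧ ∃ j ∈ Icc 1 n, Ev j z ω)
    (hind : ∀ j, ∀ z ∈ s, ∀ ω l, Ev j z (Function.update ω z l) ↔ Ev j z ω)
    (hEv : ∀ j ∈ Icc 1 n, ∀ z ∈ s, EX w (fun ω => if Ev j z ω then 1 else 0) ≤ ε j * J z) :
    ∑ z ∈ s, EX w (fun ω => if Bl z ω then 1 else 0) ≤ p / 2 := by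
  have h1 : ∀ z ∈ s, EX w (fun ω => if Bl z ω then (1 : ℝ) else 0) ≤
      p * ((∑ j ∈ Icc 1 n, ε j) * J z) := by
    intro z hz
    have h2 : EX w (fun ω => if Bl z ω then (1 : ℝ) else 0) ≤
        ∑ j ∈ Icc 1 n, EX w (fun ω => if (ω z = v ∧ Ev j z ω) then 1 else 0) := by
      refine EX_union hw _ _ _ fun ω hω => ?_
      obtain ⟨hv, j, hj, hE⟩ := hBl z hz ω hω
      exact ⟨j, hj, hv, hE⟩
    refine h2.trans ?_
    rw [sum_mul, mul_sum]
    refine sum_le_sum fun j hj => ?_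
    have h3 : (fun ω : E → L => if (ω z = v ∧ Ev j z ω) then (1 : ℝ) else 0) =
        fun ω => if ω z = v then (if Ev j z ω then 1 else 0) else 0 := by
      funext ω
      by_cases hv : ω z = v
      · by_cases hE : Ev j z ω <;> simp [hv, hE]
      · simp [hv]
    rw [h3, EX_indep z v w (hw1 z) _ fun ω l => by simp only [hind j z hz ω l], hp z]
    refine mul_le_mul_of_nonneg_left (hEv j hj z hz) ?_
    rw [← hp z]
    exact hw z v
  calc ∑ z ∈ s, EX w (fun ω => if Bl z ω then (1 : ℝ) else 0)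
      ≤ ∑ z ∈ s, p * ((∑ j ∈ Icc 1 n, ε j) * J z) := sum_le_sum h1
    _ = p * ((∑ j ∈ Icc 1 n, ε j) * ∑ z ∈ s, J z) := by rw [← mul_sum, ← mul_sum]
    _ ≤ p * (Θ / 2 * (1 / Θ)) := by
      refine mul_le_mul_of_nonneg_left ?_ hp0
      exact mul_le_mul hsum hJ (sum_nonneg fun z _ => hJ0 z) (by linarith)
    _ = p / 2 := by
      have := hΘ.ne'
      field_simp

end

end Vale.Agent.P331.H873
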