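import Vale.Agent.P331.H316.Rows

/-!
# The numbers of the one-target argument (statement only)

`RowNUM` is a statement about real numbers only.  `m j` is the size `m_(j+1)` of the note 19883:
the step from level `j + 1` to level `j` fails with probability at most `exp (- m j)`.
Suggested choice: `q = 6400`, `th = 1 / 2`, `M k = 200 ^ k * M 0`, `m j = M (j + 1)`,
`P.kap j = ⌊2 * M (j + 1) / log (s₁ * g / p)⌋₊`, `P.zet j = exp (- M (j + 1) / 2)`,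
`P.lam j = exp (- M (j + 1) / 4)`, `P.dl j = exp (- M j / 16)`,
`P.eta j = exp (- 601 * M j)`, `P.eps j = ` tail sum of `kap * dl` (or any explicit majorant),
`lam' j = exp (- M (j + 2) / 8)`, `zet' j = exp (- M (j + 2) / 16)`,
`bet j = exp (- M (j + 2) / 64)`, `ga j = exp (- M j / 4)`.
-/

set_option autoImplicit false

namespace Vale.Agent.P331.H873

open Finset Vale.Agent.P331.H489 Vale.Agent.P331 Vale.Agent.P331.H316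

/-- the bound of the core lemma at level `j` -/
noncomputable def coreB (q : ℕ) (s₁ th : ℝ) (P : Par) (ga : ℕ → ℝ) (j : ℕ) : ℝ :=
  1 / (Th s₁ (1 / 4) P * (1 - Th s₁ (1 / 4) P)) * (P.eta j / ga j ^ 2 +
      ga j ^ (q - 2) / (th ^ P.kap j * P.dl j) ^ (2 * q))

/-- the bound of the step at level `j` -/
noncomputable def stepB (q : ℕ) (p s₁ th : ℝ) (P : Par) (ga bet lam' zet' : ℕ → ℝ) (j : ℕ) : ℝ :=
  (P.zet (j + 1) + P.lam (j + 1) / lam' j) / zet' j + (p / (s₁ * P.g)) ^ (P.kap j + 1) +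
    (zet' j + bet j + 16 ^ P.kap (j + 1) * lam' j / bet j ^ 4 + coreB q s₁ th P ga j) / P.lam j

/-- the numbers fit -/
structure Num (q : ℕ) (t x₀ C p s₁ th : ℝ) (P : Par) (m ga bet lam' zet' : ℕ → ℝ) : Prop where
  ht : P.t = t
  hp : 0 < p
  hpx : p ≤ x₀
  hs : 0 < s₁
  hsum : p + s₁ + 1 / 4 ≤ 1
  hg : 0 < P.g
  hg4 : P.g ≤ 1 / 4
  hn : 0 < P.n
  hn4 : P.n ≤ 1 / 4
  hgn : P.g / (1 - 2 * P.g) ≤ P.n * (1 - P.g) / (1 - 2 * P.g) / 10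
  hxr : xr s₁ P ≤ x₀
  hth : 0 < th
  hth1 : th ≤ 1
  hC : C * p ≤ 1 - th
  hpg : p ≤ s₁ * P.g
  hkap0 : P.kap 0 = 0
  heps : ∀ j, 0 ≤ P.eps j
  hlam : ∀ j, 0 < P.lam j
  hzet : ∀ j, 0 < P.zet j
  heps1 : ∀ j, P.eps j < 1
  hlam1 : ∀ j, P.lam j < 1
  hzet1 : ∀ j, P.zet j < 1
  hdl : ∀ j, 0 < P.dl j
  heta : ∀ j, 0 < P.eta j
  hga : ∀ j, 0 < ga j
  hbet : ∀ j, 0 < bet j
  hlam' : ∀ j, 0 < lam' j
  hzet' : ∀ j, 0 < zet' j
  hkap : ∀ N : ℕ, ∃ n₀, ∀ n ≥ n₀, N ≤ P.kap n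
  hlim : ∀ c : ℝ, 0 < c → ∃ n₀, ∀ n ≥ n₀, P.dl n ≤ c ∧ P.eta n ≤ c
  hepsj : ∀ j, P.eps (j + 1) + P.kap j * P.dl j ≤ P.eps j
  hstep : ∀ j, stepB q p s₁ th P ga bet lam' zet' j ≤ P.zet j * Real.exp (- m j)
  hcharge : ∀ j, Real.exp (- ((q - 2 : ℝ) * m j / 2)) ≤
    P.eta (j + 1) * (th ^ P.kap (j + 1) * P.dl (j + 1)) ^ (2 * q)
  hm0 : 0 ≤ m 0
  hm : ∀ j, m j + 2 ≤ m (j + 1)
  hfirst : 2 * Real.exp (- m 0 / 2) ≤ Th s₁ (1 / 4) P / 2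

/-- ROW NUM: the numbers exist (order of choice: `q`; then `t, x₀, C` are given; then `g, n, s₁`;
then the sizes; then `p`) -/
def RowNUM : Prop := ∃ q : ℕ, 2 < q ∧ ∀ t x₀ C : ℝ, 0 < t → t ≤ 1 / 2 → 0 < x₀ → x₀ ≤ 1 / 100 →
  0 < C → ∃ (p s₁ th : ℝ) (P : Par) (m ga bet lam' zet' : ℕ → ℝ),
    Num q t x₀ C p s₁ th P m ga bet lam' zet'

end Vale.Agent.P331.H873
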