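import Vale.Agent.P331.H316.Rows

/-!
# The blame (row CH of line A)
-/

set_option autoImplicit false
set_option linter.unusedSectionVars false
set_option linter.unusedVariables false

namespace Vale.Agent.P331.H873

open Finset Vale.Agent.P331.H489 Vale.Agent.P331 Vale.Agent.P331.H316
open scoped Classical

theorem ind_nonneg (P : Prop) : 0 ≤ ind P := by
  unfold ind; split_ifs <;> norm_num

theorem ind_le_one (P : Prop) : ind P ≤ 1 := by
  unfold ind; split_ifs <;> norm_num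

theorem ind_mono {P Q : Prop} (h : P → Q) : ind P ≤ ind Q := by
  by_cases hP : P
  · simp [ind, hP, h hP]
  · simp only [ind, hP, if_false]
    split_ifs <;> norm_num

theorem ind_sq (P : Prop) : ind P ^ 2 = ind P := by
  unfold ind; split_ifs <;> norm_num

theorem tw_nonneg {τ : ℝ} (h0 : 0 ≤ τ) (h1 : τ ≤ 1) (b : Bool) : 0 ≤ tw τ b := by
  unfold tw; split_ifs <;> linarith

theorem w4_nonneg {p x s : ℝ} (hp : 0 ≤ p) (hx : 0 ≤ x) (hs : 0 ≤ s) (h : p + x + s ≤ 1) (l : L4) :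
    0 ≤ w4 p x s l := by
  cases l <;> simp only [w4] <;> linarith

section

variable {E : Type} [Fintype E]

theorem thin_nonneg {τ : ℝ} (h0 : 0 ≤ τ) (h1 : τ ≤ 1) (S : Finset E) {F : Finset E → ℝ}
    (h : ∀ U, 0 ≤ F U) : 0 ≤ thin τ S F :=
  EX_nonneg (fun _ b => tw_nonneg h0 h1 b) fun _ => h _

theorem thin_mono {τ : ℝ} (h0 : 0 ≤ τ) (h1 : τ ≤ 1) (S : Finset E) {F G : Finset E → ℝ}
    (h : ∀ U, F U ≤ G U) : thin τ S F ≤ thin τ S G :=
  EX_mono (fun _ b => tw_nonneg h0 h1 b) fun _ => h _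

theorem PR_mono {p x s : ℝ} (hp : 0 ≤ p) (hx : 0 ≤ x) (hs : 0 ≤ s) (h : p + x + s ≤ 1)
    {F G : Finset E → Finset E → Finset E → ℝ} (hFG : ∀ V R I, F V R I ≤ G V R I) :
    PR p x s F ≤ PR p x s G :=
  EX_mono (fun _ l => w4_nonneg hp hx hs h l) fun _ => hFG _ _ _

theorem PR_nonneg {p x s : ℝ} (hp : 0 ≤ p) (hx : 0 ≤ x) (hs : 0 ≤ s) (h : p + x + s ≤ 1)
    {F : Finset E → Finset E → Finset E → ℝ} (hF : ∀ V R I, 0 ≤ F V R I) :
    0 ≤ PR p x s F :=
  EX_nonneg (fun _ l => w4_nonneg hp hx hs h l) fun _ => hF _ _ _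

theorem PR_mul (p x s c : ℝ) (F : Finset E → Finset E → Finset E → ℝ) :
    PR p x s (fun V R I => c * F V R I) = c * PR p x s F := by
  unfold PR
  exact EX_mul _ c _

/-- forgetting the mark of the pool -/
def mrg (x : L4 × (Bool × Bool)) : L4 :=
  if x.1 = .s then (if x.2.1 = true ∨ x.2.2 = true then .s else .o) else x.1

/-- the pool together with the outer noise is an exclusive label -/
theorem PR_merge (p s₁ s₂ g n : ℝ) (F : Finset E → Finset E → Finset E → ℝ) :
    PR p s₁ s₂ (fun V R I => thin g R fun G => thin n (R \ G) fun N => F V (G ∪ N) I) =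
      PR p (s₁ * (g + (1 - g) * n)) s₂ F := by
  have h1 : ∀ (κ : E → L4) (c d : E → Bool),
      F (cls κ .v) ((cls κ .s).filter (fun e => c e = true) ∪
        (cls κ .s \ (cls κ .s).filter (fun e => c e = true)).filter (fun e => d e = true))
        (cls κ .i) =
      (fun ω : E → L4 => F (cls ω .v) (cls ω .s) (cls ω .i))
        (fun e => mrg (κ e, (c e, d e))) := by
    intro κ c d
    simp only
    congr 1
    · ext e
      simp only [cls, mem_filter, mem_univ, true_and, mrg]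
      cases κ e <;> simp <;> split_ifs <;> simp
    · ext e
      simp only [cls, mem_filter, mem_univ, true_and, mrg, mem_union, mem_sdiff]
      cases κ e <;> cases c e <;> cases d e <;> simp
    · ext e
      simp only [cls, mem_filter, mem_univ, true_and, mrg]
      cases κ e <;> simp <;> split_ifs <;> simp
  unfold PR thin
  simp only [h1]
  have h2 : ∀ κ : E → L4,
      (EX (fun _ : E => tw g) fun c => EX (fun _ : E => tw n) fun d =>
        (fun ω : E → L4 => F (cls ω .v) (cls ω .s) (cls ω .i))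
          (fun e => mrg (κ e, (c e, d e)))) =
      EX (fun (_ : E) (x : Bool × Bool) => tw g x.1 * tw n x.2) fun τ =>
        (fun ω : E → L4 => F (cls ω .v) (cls ω .s) (cls ω .i))
          (fun e => mrg (κ e, τ e)) := by
    intro κ
    rw [← EX_prod (fun _ : E => tw g) (fun _ : E => tw n) (fun c d =>
      (fun ω : E → L4 => F (cls ω .v) (cls ω .s) (cls ω .i)) (fun e => mrg (κ e, (c e, d e))))]
  rw [show (fun κ : E → L4 => (EX (fun _ : E => tw g) fun c => EX (fun _ : E => tw n) fun d =>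
        (fun ω : E → L4 => F (cls ω .v) (cls ω .s) (cls ω .i))
          (fun e => mrg (κ e, (c e, d e))))) = fun κ =>
      EX (fun (_ : E) (x : Bool × Bool) => tw g x.1 * tw n x.2) fun τ =>
        (fun ω : E → L4 => F (cls ω .v) (cls ω .s) (cls ω .i))
          (fun e => mrg (κ e, τ e)) from funext h2]
  rw [← EX_prod (fun _ : E => w4 p s₁ s₂)
    (fun (_ : E) (x : Bool × Bool) => tw g x.1 * tw n x.2) (fun κ τ =>
      (fun ω : E → L4 => F (cls ω .v) (cls ω .s) (cls ω .i)) (fun e => mrg (κ e, τ e)))]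
  have h3 := EX_push (E := E) mrg
    (fun (_ : E) (x : L4 × (Bool × Bool)) => w4 p s₁ s₂ x.1 * (tw g x.2.1 * tw n x.2.2))
    (fun ω : E → L4 => F (cls ω .v) (cls ω .s) (cls ω .i))
  refine Eq.trans ?_ (h3.trans ?_)
  · rfl
  · congr 1
    funext e l
    rw [sum_filter, Fintype.sum_prod_type]
    rw [sum_L4]
    simp only [Fintype.sum_prod_type, Fintype.sum_bool]
    cases l <;> simp [mrg, w4, tw] <;> ring

/-! ## Monotonicity in the context -/

theorem rel_mono (D : Finset E → Prop) (t dl : ℝ) (kap : ℕ) (I : Finset E) {X X' : Finset E}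
    (h : X ⊆ X') (b : E) (W : Finset E) (hr : rel D t dl kap I X b W) :
    rel D t dl kap I X' b W := by
  obtain ⟨U, hU, hc, hd⟩ := hr
  exact ⟨U, hU.trans (erase_subset_erase b h), hc, hd⟩

theorem rho_mono (D : Finset E → Prop) {g n : ℝ} (hg : 0 ≤ g) (hg1 : g ≤ 1) (hn : 0 ≤ n)
    (hn1 : n ≤ 1) (t dl : ℝ) (kap : ℕ) (R I : Finset E) {X X' : Finset E} (h : X ⊆ X') (b : E) :
    rho D g n t dl kap R I X b ≤ rho D g n t dl kap R I X' b := by
  unfold rho
  exact thin_mono hg hg1 _ fun G => thin_mono hn hn1 _ fun N =>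
    ind_mono fun hr => rel_mono D t dl kap I h b _ hr

theorem rho_nonneg (D : Finset E → Prop) {g n : ℝ} (hg : 0 ≤ g) (hg1 : g ≤ 1) (hn : 0 ≤ n)
    (hn1 : n ≤ 1) (t dl : ℝ) (kap : ℕ) (R I X : Finset E) (b : E) :
    0 ≤ rho D g n t dl kap R I X b :=
  thin_nonneg hg hg1 _ fun G => thin_nonneg hn hn1 _ fun N => ind_nonneg _

theorem sig_mono (D : Finset E → Prop) (P : Par) (hg : 0 ≤ P.g) (hg1 : P.g ≤ 1) (hn : 0 ≤ P.n)
    (hn1 : P.n ≤ 1) (R I : Finset E) (j : ℕ) {X X' : Finset E} (h : X ⊆ X') (b : E)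
    (hs : sig D P R I j X b) : sig D P R I j X' b :=
  le_trans hs (rho_mono D hg hg1 hn hn1 _ _ _ R I h b)

theorem core_subset (D : Finset E → Prop) (P : Par) (R I : Finset E) (j : ℕ) (X : Finset E) :
    core D P R I j X ⊆ X := by
  unfold core
  have : (X.powerset.filter fun Q => ∀ b ∈ Q, sig D P R I j Q b).sup id ≤ X :=
    Finset.sup_le fun Q hQ => mem_powerset.1 (mem_filter.1 hQ).1
  exact this

/-- the elements of the core are declared -/
theorem sig_of_mem_core (D : Finset E → Prop) (P : Par) (hg : 0 ≤ P.g) (hg1 : P.g ≤ 1)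
    (hn : 0 ≤ P.n) (hn1 : P.n ≤ 1) (R I : Finset E) (j : ℕ) (X : Finset E) (b : E)
    (hb : b ∈ core D P R I j X) : sig D P R I j (core D P R I j X) b := by
  have h1 : b ∈ (X.powerset.filter fun Q => ∀ b ∈ Q, sig D P R I j Q b).sup id := hb
  rw [Finset.mem_sup] at h1
  obtain ⟨Q, hQ, hbQ⟩ := h1
  refine sig_mono D P hg hg1 hn hn1 R I j ?_ b ((mem_filter.1 hQ).2 b hbQ)
  have : id Q ≤ (X.powerset.filter fun Q => ∀ b ∈ Q, sig D P R I j Q b).sup id :=
    Finset.le_sup (f := id) hQ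
  exact this

/-! ## Row CH -/

theorem rowCH (hHC : RowHC) : RowCH := by
  intro q p s₁ s₂ th P hq hp hs₁ hs₂ hsum hg hg1 hn hn1 ht ht1 hth hth1 hone E _ D b j hdl heta
  have hx0 : 0 ≤ xr s₁ P := by
    unfold xr
    exact mul_nonneg hs₁ (add_nonneg hg (mul_nonneg (by linarith) hn))
  have hx1 : xr s₁ P ≤ s₁ := by
    unfold xr
    have : P.g + (1 - P.g) * P.n ≤ 1 := by nlinarith
    nlinarith
  have key := hHC q p (xr s₁ P) s₂ P.t th hq hp hx0 hs₂ (by linarith) ht ht1 hth hth1 hone E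
    (fun U => ind (Piv D b U)) (fun U => ind_nonneg _) (P.kap j) (P.dl j) hdl
  have h1 : thin (xr s₁ P + s₂ * P.t) univ (fun U : Finset E => ind (Piv D b U) ^ 2) =
      Jn D (Th s₁ s₂ P) b := by
    unfold Jn Th
    simp only [ind_sq]
  rw [h1] at key
  refine le_trans ?_ key
  have h2 : P.eta j * PR p s₁ s₂ (fun V R I => ind (∃ X ⊆ V, sig D P R I j X b)) ≤
      PR (E := E) p (xr s₁ P) s₂ (fun V X I => ind (∃ U ⊆ V, U.card ≤ P.kap j ∧
        P.dl j ≤ thin P.t I fun N => ind (Piv D b (U ∪ X ∪ N)))) := by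
    rw [← PR_mul]
    have h3 := PR_merge (E := E) p s₁ s₂ P.g P.n (fun V X I => ind (∃ U ⊆ V, U.card ≤ P.kap j ∧
        P.dl j ≤ thin P.t I fun N => ind (Piv D b (U ∪ X ∪ N))))
    change _ ≤ PR p (s₁ * (P.g + (1 - P.g) * P.n)) s₂ _
    rw [← h3]
    refine PR_mono hp hs₁ hs₂ hsum fun V R I => ?_
    have h4 : rho D P.g P.n P.t (P.dl j) (P.kap j) R I V b ≤
        thin P.g R fun G => thin P.n (R \ G) fun N => ind (∃ U ⊆ V, U.card ≤ P.kap j ∧
          P.dl j ≤ thin P.t I fun N_1 => ind (Piv D b (U ∪ (G ∪ N) ∪ N_1))) := by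
      refine thin_mono hg hg1 _ fun G => thin_mono hn hn1 _ fun N => ind_mono ?_
      rintro ⟨U, hU, hc, hd⟩
      exact ⟨U, hU.trans (erase_subset b V), hc, hd⟩
    refine le_trans ?_ h4
    by_cases h : ∃ X ⊆ V, sig D P R I j X b
    · obtain ⟨X, hX, hs⟩ := h
      have h5 : sig D P R I j V b := sig_mono D P hg hg1 hn hn1 R I j hX b hs
      have h6 : ind (∃ X ⊆ V, sig D P R I j X b) = 1 := by
        unfold ind; rw [if_pos ⟨X, hX, hs⟩]
      rw [h6, mul_one]
      exact h5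
    · have h6 : ind (∃ X ⊆ V, sig D P R I j X b) = 0 := by
        unfold ind; rw [if_neg h]
      rw [h6, mul_zero]
      exact rho_nonneg D hg hg1 hn hn1 _ _ _ R I V b
  have h7 : 0 ≤ (th ^ P.kap j * P.dl j) ^ (2 * q) := by positivity
  calc P.eta j * (th ^ P.kap j * P.dl j) ^ (2 * q) *
      PR p s₁ s₂ (fun V R I => ind (∃ X ⊆ V, sig D P R I j X b))
      = (th ^ P.kap j * P.dl j) ^ (2 * q) * (P.eta j *
        PR p s₁ s₂ (fun V R I => ind (∃ X ⊆ V, sig D P R I j X b))) := by ring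
    _ ≤ _ := mul_le_mul_of_nonneg_left h2 h7

end

end Vale.Agent.P331.H873
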