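import Vale.Agent.P331.H873.NumDef

/-!
# The numbers exist (row NUM of line A)

Natural powers of one small number `dd` (numbers of helper786, note 20695).
-/

set_option autoImplicit false

namespace Vale.Agent.P331.H873

open Finset Vale.Agent.P331.H489 Vale.Agent.P331 Vale.Agent.P331.H316

/-- powers of a number at most one -/
theorem pw {D : ℝ} (h0 : 0 < D) (h1 : D ≤ 1 / 16) {a b : ℕ} (h : b ≤ a) : D ^ a ≤ D ^ b :=
  pow_le_pow_of_le_one h0.le (by linarith) h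

theorem pw1 {D : ℝ} (h0 : 0 < D) (h1 : D ≤ 1 / 16) {a b : ℕ} (h : b + 1 ≤ a) :
    D ^ a ≤ D ^ b / 16 := by
  have h2 := pw h0 h1 h
  have h3 : 0 < D ^ b := pow_pos h0 b
  rw [pow_succ] at h2
  nlinarith

theorem dpw {D X : ℝ} (h0 : 0 < D) {k l : ℕ} (h : X ≤ D ^ (l + k)) : X / D ^ k ≤ D ^ l := by
  rw [div_le_iff₀ (pow_pos h0 k), ← pow_add]
  exact h

/-- all the terms of the step -/
theorem step_num {D c K tk : ℝ} (h0 : 0 < D) (h1 : D ≤ 1 / 16) (hc0 : 0 ≤ c) (hc : c * D ≤ 1)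
    (hK : K * D ^ 200 ≤ 1) (htk : D ≤ tk) :
    ((D ^ 200) ^ 1600 + (D ^ 200) ^ 800 / D ^ 80000) / D ^ 40000 + D ^ 6400 +
      (D ^ 40000 + D ^ 5800 + K * D ^ 80000 / (D ^ 5800) ^ 4 +
        c * (D ^ 6040 / (D ^ 16) ^ 2 + (D ^ 16) ^ 1998 / (tk * D) ^ 4000)) / D ^ 800 ≤
      D ^ 1600 * D ^ 3200 := by
  have hD : D ≤ 1 := by linarith
  have t1 : (D ^ 200) ^ 1600 / D ^ 40000 ≤ D ^ 4801 := by
    refine dpw h0 ?_
    rw [← pow_mul]
    exact pw h0 h1 (by norm_num)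
  have t2 : (D ^ 200) ^ 800 / D ^ 80000 / D ^ 40000 ≤ D ^ 4801 := by
    refine dpw h0 (dpw h0 ?_)
    rw [← pow_mul]
    exact pw h0 h1 (by norm_num)
  have t3 : D ^ 6400 ≤ D ^ 4801 := pw h0 h1 (by norm_num)
  have t4 : D ^ 40000 / D ^ 800 ≤ D ^ 4801 := dpw h0 (pw h0 h1 (by norm_num))
  have t5 : D ^ 5800 / D ^ 800 ≤ D ^ 4801 := dpw h0 (pw h0 h1 (by norm_num))
  have t6 : K * D ^ 80000 / (D ^ 5800) ^ 4 / D ^ 800 ≤ D ^ 4801 := by
    refine dpw h0 ?_
    rw [← pow_mul]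
    refine dpw h0 ?_
    have e1 : K * D ^ 80000 = (K * D ^ 200) * D ^ 79800 := by
      rw [mul_assoc, ← pow_add]
    rw [e1]
    calc (K * D ^ 200) * D ^ 79800 ≤ 1 * D ^ 79800 :=
          mul_le_mul_of_nonneg_right hK (pow_pos h0 _).le
      _ = D ^ 79800 := one_mul _
      _ ≤ _ := pw h0 h1 (by norm_num)
  have t7 : c * (D ^ 6040 / (D ^ 16) ^ 2) / D ^ 800 ≤ D ^ 4801 := by
    refine dpw h0 ?_
    have e1 : D ^ 6040 / (D ^ 16) ^ 2 = D ^ 6008 := by
      rw [← pow_mul, div_eq_iff (pow_pos h0 _).ne', ← pow_add]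
    rw [e1, show (6008 : ℕ) = 1 + 6007 by norm_num, pow_add, pow_one, ← mul_assoc]
    calc c * D * D ^ 6007 ≤ 1 * D ^ 6007 := mul_le_mul_of_nonneg_right hc (pow_pos h0 _).le
      _ = D ^ 6007 := one_mul _
      _ ≤ _ := pw h0 h1 (by norm_num)
  have t8 : c * ((D ^ 16) ^ 1998 / (tk * D) ^ 4000) / D ^ 800 ≤ D ^ 4801 := by
    refine dpw h0 ?_
    have e0 : 0 < tk := lt_of_lt_of_le h0 htk
    have e1 : D ^ 8000 ≤ (tk * D) ^ 4000 := by
      rw [show (8000 : ℕ) = 2 * 4000 by norm_num, pow_mul]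
      refine pow_le_pow_left₀ (by positivity) ?_ _
      rw [pow_two]
      exact mul_le_mul_of_nonneg_right htk h0.le
    have e2 : (D ^ 16) ^ 1998 / (tk * D) ^ 4000 ≤ D ^ 23968 := by
      rw [← pow_mul, div_le_iff₀ (by positivity)]
      calc D ^ (16 * 1998) = D ^ 23968 * D ^ 8000 := by rw [← pow_add]
        _ ≤ D ^ 23968 * (tk * D) ^ 4000 := mul_le_mul_of_nonneg_left e1 (pow_pos h0 _).le
    calc c * ((D ^ 16) ^ 1998 / (tk * D) ^ 4000) ≤ c * D ^ 23968 :=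
          mul_le_mul_of_nonneg_left e2 hc0
      _ = (c * D) * D ^ 23967 := by
          rw [mul_assoc, show (23968 : ℕ) = 1 + 23967 by norm_num, pow_add, pow_one]
      _ ≤ 1 * D ^ 23967 := mul_le_mul_of_nonneg_right hc (pow_pos h0 _).le
      _ = D ^ 23967 := one_mul _
      _ ≤ _ := pw h0 h1 (by norm_num)
  have t9 : D ^ 4801 ≤ D ^ 4800 / 16 := pw1 h0 h1 (by norm_num)
  have t10 : D ^ 1600 * D ^ 3200 = D ^ 4800 := by rw [← pow_add]
  have t11 : 0 < D ^ 4800 := pow_pos h0 _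
  rw [t10]
  have e : ((D ^ 200) ^ 1600 + (D ^ 200) ^ 800 / D ^ 80000) / D ^ 40000 + D ^ 6400 +
      (D ^ 40000 + D ^ 5800 + K * D ^ 80000 / (D ^ 5800) ^ 4 +
        c * (D ^ 6040 / (D ^ 16) ^ 2 + (D ^ 16) ^ 1998 / (tk * D) ^ 4000)) / D ^ 800 =
      (D ^ 200) ^ 1600 / D ^ 40000 + (D ^ 200) ^ 800 / D ^ 80000 / D ^ 40000 + D ^ 6400 +
      (D ^ 40000 / D ^ 800 + D ^ 5800 / D ^ 800 + K * D ^ 80000 / (D ^ 5800) ^ 4 / D ^ 800 +
        (c * (D ^ 6040 / (D ^ 16) ^ 2) / D ^ 800 +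
          c * ((D ^ 16) ^ 1998 / (tk * D) ^ 4000) / D ^ 800)) := by
    rw [add_div, add_div, add_div, add_div, mul_add, add_div]
  rw [e]
  linarith

/-- the small number of level `j` -/
noncomputable def dj (dd : ℝ) (j : ℕ) : ℝ := dd ^ (200 ^ j)

theorem dj_pos {dd : ℝ} (h : 0 < dd) (j : ℕ) : 0 < dj dd j := pow_pos h _

theorem dj_le {dd : ℝ} (h : 0 < dd) (h1 : dd ≤ 1 / 16) (j : ℕ) : dj dd j ≤ dd := by
  have h2 : (1 : ℕ) ≤ 200 ^ j := Nat.one_le_pow _ _ (by norm_num)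
  calc dj dd j ≤ dd ^ 1 := pow_le_pow_of_le_one h.le (by linarith) h2
    _ = dd := pow_one dd

theorem dj_succ (dd : ℝ) (j : ℕ) : dj dd (j + 1) = dj dd j ^ 200 := by
  unfold dj
  rw [← pow_mul, pow_succ]

theorem exp_m {dd : ℝ} (h : 0 < dd) (k j : ℕ) :
    Real.exp (-(k * -Real.log dd * 200 ^ j)) = dj dd j ^ k := by
  unfold dj
  rw [← pow_mul]
  have e : -((k : ℝ) * -Real.log dd * 200 ^ j) = ((200 ^ j * k : ℕ) : ℝ) * Real.log dd := by
    push_cast
    ring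
  rw [e, Real.exp_nat_mul, Real.exp_log h]

theorem lt_200 (j : ℕ) : j < 200 ^ j := Nat.lt_pow_self (by norm_num)

theorem kap_dl {dd : ℝ} (h : 0 < dd) (h1 : dd ≤ 1 / 16) (j : ℕ) :
    ((200 ^ j - 1 : ℕ) : ℝ) * dj dd j ≤ 1 / 2 ^ (j + 2) := by
  rcases Nat.eq_zero_or_pos j with rfl | hj
  · simp
  · have hN : j + 2 ≤ 200 ^ j * 2 := by
      have := lt_200 j
      omega
    have h2 : ((200 ^ j - 1 : ℕ) : ℝ) ≤ 2 ^ (200 ^ j) := by
      have h3 : 200 ^ j - 1 ≤ 2 ^ (200 ^ j) :=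
        (Nat.sub_le _ _).trans (Nat.lt_two_pow_self).le
      exact_mod_cast h3
    have h4 : dj dd j ≤ (1 / 8) ^ (200 ^ j) := by
      unfold dj
      exact pow_le_pow_left₀ h.le (by linarith) _
    calc ((200 ^ j - 1 : ℕ) : ℝ) * dj dd j ≤ 2 ^ (200 ^ j) * (1 / 8) ^ (200 ^ j) :=
          mul_le_mul h2 h4 (dj_pos h j).le (by positivity)
      _ = (1 / 2) ^ (200 ^ j * 2) := by
          rw [← mul_pow, mul_comm (200 ^ j) 2, pow_mul]
          norm_num
      _ ≤ (1 / 2) ^ (j + 2) := pow_le_pow_of_le_one (by norm_num) (by norm_num) hN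
      _ = 1 / 2 ^ (j + 2) := by rw [one_div_pow]

theorem dj_le_half {dd : ℝ} (h : 0 < dd) (h1 : dd ≤ 1 / 16) (j : ℕ) :
    dj dd j ≤ (1 / 2) ^ (200 ^ j - 1) := by
  unfold dj
  calc dd ^ (200 ^ j) ≤ (1 / 2) ^ (200 ^ j) := pow_le_pow_left₀ h.le (by linarith) _
    _ ≤ (1 / 2) ^ (200 ^ j - 1) :=
      pow_le_pow_of_le_one (by norm_num) (by norm_num) (Nat.sub_le _ _)

theorem sixteen {dd : ℝ} (h : 0 < dd) (h1 : dd ≤ 1 / 16) (j : ℕ) :
    16 ^ (200 ^ j - 1) * dj dd j ≤ 1 := by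
  unfold dj
  calc (16 : ℝ) ^ (200 ^ j - 1) * dd ^ (200 ^ j) ≤ 16 ^ (200 ^ j) * (1 / 16) ^ (200 ^ j) := by
        refine mul_le_mul ?_ (pow_le_pow_left₀ h.le h1 _) (pow_pos h _).le (by positivity)
        exact pow_le_pow_right₀ (by norm_num) (Nat.sub_le _ _)
    _ = 1 := by
        rw [← mul_pow]
        norm_num

theorem rowNUM : RowNUM := by
  refine ⟨2000, by norm_num, ?_⟩
  intro t x₀ C ht0 ht2 hx₀ hx₁ hC
  -- the outer rates
  set n : ℝ := x₀ with hn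
  have hn0 : 0 < n := hx₀
  have hn1 : n ≤ 1 / 100 := hx₁
  set x : ℝ := 1 / 2 * (n / 20 + (1 - n / 20) * n) with hx
  have hxpos : 0 < x := by
    have : 0 < 1 - n / 20 := by linarith
    positivity
  have hxle : x ≤ x₀ := by
    have : (1 - n / 20) * n ≤ n := by nlinarith
    rw [hx]
    linarith
  set Θ : ℝ := x + 1 / 4 * t with hΘ
  have hΘ0 : 0 < Θ := by positivity
  have hΘ1 : Θ < 1 := by rw [hΘ]; linarith
  have hΘ2 : 0 < Θ * (1 - Θ) := mul_pos hΘ0 (by linarith)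
  -- the small number
  obtain ⟨dd, hdd0, hdd1, hdd2, hdd3, hdd4, hdd5⟩ : ∃ dd : ℝ, 0 < dd ∧ dd ≤ 1 / 16 ∧
      dd ≤ Θ * (1 - Θ) ∧ dd ≤ Θ / 4 ∧ dd ≤ x₀ ∧ dd ≤ 1 / (2 * C) := by
    refine ⟨min (1 / 16) (min (Θ * (1 - Θ)) (min (Θ / 4) (min x₀ (1 / (2 * C))))), ?_, ?_, ?_, ?_,
      ?_, ?_⟩
    · refine lt_min (by norm_num) (lt_min hΘ2 (lt_min (by positivity) (lt_min hx₀ ?_)))
      positivity
    · exact min_le_left _ _
    · exact (min_le_right _ _).trans (min_le_left _ _)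
    · exact (min_le_right _ _).trans ((min_le_right _ _).trans (min_le_left _ _))
    · exact (min_le_right _ _).trans ((min_le_right _ _).trans ((min_le_right _ _).trans
        (min_le_left _ _)))
    · exact (min_le_right _ _).trans ((min_le_right _ _).trans ((min_le_right _ _).trans
        (min_le_right _ _)))
  have hD0 : ∀ j, 0 < dj dd j := dj_pos hdd0
  have hD1 : ∀ j, dj dd j ≤ dd := dj_le hdd0 hdd1
  have hD2 : ∀ j, dj dd j ≤ 1 / 16 := fun j => (hD1 j).trans hdd1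
  have hdp : dd ^ 6400 ≤ dd := by
    calc dd ^ 6400 ≤ dd ^ 1 := pow_le_pow_of_le_one hdd0.le (by linarith) (by norm_num)
      _ = dd := pow_one dd
  have hdp0 : 0 < dd ^ 6400 := pow_pos hdd0 _
  set p : ℝ := 1 / 2 * (n / 20) * dd ^ 6400 with hp
  have hp0 : 0 < p := by positivity
  have hp1 : p ≤ dd := by
    have h1 : 1 / 2 * (n / 20) ≤ 1 := by linarith
    calc p ≤ 1 * dd ^ 6400 := mul_le_mul_of_nonneg_right h1 hdp0.le
      _ = dd ^ 6400 := one_mul _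
      _ ≤ dd := hdp
  let P : Par :=
    { g := n / 20
      n := n
      t := t
      kap := fun j => 200 ^ j - 1
      eps := fun j => 1 / 2 ^ (j + 1)
      dl := fun j => dj dd j
      eta := fun j => dj dd j ^ 6040
      lam := fun j => dj dd j ^ 800
      zet := fun j => dj dd j ^ 1600 }
  have hTh : Th (1 / 2) (1 / 4) P = Θ := rfl
  have hlog : 0 < -Real.log dd := by
    have := Real.log_neg hdd0 (by linarith)
    linarith
  have hlog1 : 1 ≤ -Real.log dd := by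
    have h1 : Real.log dd ≤ Real.log (1 / 16) := Real.log_le_log hdd0 hdd1
    have h2 : Real.log (1 / 16) ≤ -1 := by
      have h3 : Real.exp 1 ≤ 16 := by
        have := Real.exp_one_lt_d9
        linarith
      have h4 : Real.log (Real.exp 1) ≤ Real.log 16 := Real.log_le_log (Real.exp_pos _) h3
      rw [Real.log_exp] at h4
      rw [one_div, Real.log_inv]
      linarith
    linarith
  refine ⟨p, 1 / 2, 1 / 2, P, fun j => ((3200 : ℕ) : ℝ) * -Real.log dd * 200 ^ j,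
    fun j => dj dd j ^ 16, fun j => dj dd j ^ 5800, fun j => dj dd j ^ 80000,
    fun j => dj dd j ^ 40000, ?_⟩
  refine
    { ht := rfl
      hp := hp0
      hpx := hp1.trans hdd4
      hs := by norm_num
      hsum := by linarith
      hg := by change 0 < n / 20; positivity
      hg4 := by change n / 20 ≤ 1 / 4; linarith
      hn := hn0
      hn4 := by change n ≤ 1 / 4; linarith
      hgn := ?_
      hxr := hxle
      hth := by norm_num
      hth1 := by norm_num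
      hC := ?_
      hpg := ?_
      hkap0 := rfl
      heps := fun j => by change (0 : ℝ) ≤ 1 / 2 ^ (j + 1); positivity
      hlam := fun j => pow_pos (hD0 j) _
      hzet := fun j => pow_pos (hD0 j) _
      heps1 := ?_
      hlam1 := fun j => pow_lt_one₀ (hD0 j).le (by linarith [hD2 j]) (by norm_num)
      hzet1 := fun j => pow_lt_one₀ (hD0 j).le (by linarith [hD2 j]) (by norm_num)
      hdl := hD0
      heta := fun j => pow_pos (hD0 j) _
      hga := fun j => pow_pos (hD0 j) _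
      hbet := fun j => pow_pos (hD0 j) _
      hlam' := fun j => pow_pos (hD0 j) _
      hzet' := fun j => pow_pos (hD0 j) _
      hkap := ?_
      hlim := ?_
      hepsj := ?_
      hstep := ?_
      hcharge := ?_
      hm0 := ?_
      hm := ?_
      hfirst := ?_ }
  · change n / 20 / (1 - 2 * (n / 20)) ≤ n * (1 - n / 20) / (1 - 2 * (n / 20)) / 10
    rw [div_div _ _ (10 : ℝ), mul_comm _ (10 : ℝ), ← div_div]
    refine div_le_div_of_nonneg_right ?_ (by linarith)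
    nlinarith
  · have h1 : C * p ≤ C * (1 / (2 * C)) := mul_le_mul_of_nonneg_left (hp1.trans hdd5) hC.le
    have h2 : C * (1 / (2 * C)) = 1 / 2 := by field_simp
    linarith
  · change 1 / 2 * (n / 20) * dd ^ 6400 ≤ 1 / 2 * (n / 20)
    have h1 : dd ^ 6400 ≤ 1 := by linarith
    have h2 : 0 ≤ 1 / 2 * (n / 20) := by positivity
    nlinarith
  · intro j
    change (1 : ℝ) / 2 ^ (j + 1) < 1
    rw [div_lt_one (by positivity)]
    exact one_lt_pow₀ (by norm_num) (by omega)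
  · intro N
    refine ⟨N, fun k hk => ?_⟩
    change N ≤ 200 ^ k - 1
    have := lt_200 k
    omega
  · intro c hc
    obtain ⟨k, hk⟩ := exists_pow_lt_of_lt_one hc (show dd < 1 by linarith)
    refine ⟨k, fun j hj => ?_⟩
    have h1 : dj dd j ≤ c := by
      refine le_trans ?_ hk.le
      unfold dj
      exact pow_le_pow_of_le_one hdd0.le (by linarith) (hj.trans (lt_200 j).le)
    refine ⟨h1, le_trans ?_ h1⟩
    change dj dd j ^ 6040 ≤ dj dd j
    calc dj dd j ^ 6040 ≤ dj dd j ^ 1 :=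
          pow_le_pow_of_le_one (hD0 j).le (by linarith [hD2 j]) (by norm_num)
      _ = dj dd j := pow_one _
  · intro j
    change (1 : ℝ) / 2 ^ (j + 1 + 1) + ((200 ^ j - 1 : ℕ) : ℝ) * dj dd j ≤ 1 / 2 ^ (j + 1)
    have h1 := kap_dl hdd0 hdd1 j
    have h2 : (1 : ℝ) / 2 ^ (j + 1) = 1 / 2 ^ (j + 2) + 1 / 2 ^ (j + 2) := by
      rw [pow_succ, pow_succ, pow_succ]
      field_simp
      norm_num
    rw [show j + 1 + 1 = j + 2 by ring, h2]
    linarith
  · intro j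
    change stepB 2000 p (1 / 2) (1 / 2) P _ _ _ _ j ≤
      dj dd j ^ 1600 * Real.exp (-(((3200 : ℕ) : ℝ) * -Real.log dd * 200 ^ j))
    rw [exp_m hdd0]
    have hc0 : 0 ≤ 1 / (Θ * (1 - Θ)) := by positivity
    have hc : 1 / (Θ * (1 - Θ)) * dj dd j ≤ 1 := by
      rw [one_div, inv_mul_le_iff₀ hΘ2, mul_one]
      exact (hD1 j).trans hdd2
    have hK : (16 : ℝ) ^ (200 ^ (j + 1) - 1) * dj dd j ^ 200 ≤ 1 := by
      rw [← dj_succ]
      exact sixteen hdd0 hdd1 (j + 1)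
    have main := step_num (hD0 j) (hD2 j) hc0 hc hK (dj_le_half hdd0 hdd1 j)
    have hpp : (p / (1 / 2 * (n / 20))) ^ (200 ^ j - 1 + 1) = dj dd j ^ 6400 := by
      have e1 : p / (1 / 2 * (n / 20)) = dd ^ 6400 := by
        rw [hp]
        field_simp
      have e2 : 200 ^ j - 1 + 1 = 200 ^ j := Nat.sub_add_cancel (Nat.one_le_pow _ _ (by norm_num))
      rw [e1, e2]
      unfold dj
      rw [← pow_mul, ← pow_mul, mul_comm]
    unfold stepB coreB
    rw [hTh]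
    change (dj dd (j + 1) ^ 1600 + dj dd (j + 1) ^ 800 / dj dd j ^ 80000) / dj dd j ^ 40000 +
      (p / (1 / 2 * (n / 20))) ^ (200 ^ j - 1 + 1) +
      (dj dd j ^ 40000 + dj dd j ^ 5800 +
        16 ^ (200 ^ (j + 1) - 1) * dj dd j ^ 80000 / (dj dd j ^ 5800) ^ 4 +
        1 / (Θ * (1 - Θ)) * (dj dd j ^ 6040 / (dj dd j ^ 16) ^ 2 +
          (dj dd j ^ 16) ^ (2000 - 2) / ((1 / 2) ^ (200 ^ j - 1) * dj dd j) ^ (2 * 2000))) /
        dj dd j ^ 800 ≤ dj dd j ^ 1600 * dj dd j ^ 3200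
    rw [hpp, dj_succ]
    exact main
  · intro j
    have e1 : -(((2000 : ℕ) - 2 : ℝ) * (((3200 : ℕ) : ℝ) * -Real.log dd * 200 ^ j) / 2) =
        -(((3196800 : ℕ) : ℝ) * -Real.log dd * 200 ^ j) := by
      push_cast
      ring
    change Real.exp (-(((2000 : ℕ) - 2 : ℝ) * (((3200 : ℕ) : ℝ) * -Real.log dd * 200 ^ j) / 2)) ≤
      dj dd (j + 1) ^ 6040 * ((1 / 2) ^ (200 ^ (j + 1) - 1) * dj dd (j + 1)) ^ (2 * 2000)
    rw [e1, exp_m hdd0]
    have h1 : dj dd (j + 1) ^ 8000 ≤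
        ((1 / 2) ^ (200 ^ (j + 1) - 1) * dj dd (j + 1)) ^ (2 * 2000) := by
      rw [show (8000 : ℕ) = 2 * (2 * 2000) by norm_num, pow_mul]
      refine pow_le_pow_left₀ (by have := hD0 (j + 1); positivity) ?_ _
      rw [pow_two]
      exact mul_le_mul_of_nonneg_right (dj_le_half hdd0 hdd1 (j + 1)) (hD0 (j + 1)).le
    calc dj dd j ^ 3196800 ≤ dj dd j ^ (200 * 14040) := pw (hD0 j) (hD2 j) (by norm_num)
      _ = dj dd (j + 1) ^ 6040 * dj dd (j + 1) ^ 8000 := by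
          rw [dj_succ, ← pow_add, ← pow_mul]
      _ ≤ _ := mul_le_mul_of_nonneg_left h1 (pow_pos (hD0 (j + 1)) _).le
  · positivity
  · intro j
    have h1 : (1 : ℝ) ≤ 200 ^ j := one_le_pow₀ (by norm_num)
    have h2 : 1 * 1 ≤ -Real.log dd * 200 ^ j := mul_le_mul hlog1 h1 (by norm_num) hlog.le
    have h3 : ((3200 : ℕ) : ℝ) * -Real.log dd * 200 ^ (j + 1) =
        200 * (((3200 : ℕ) : ℝ) * -Real.log dd * 200 ^ j) := by ring
    rw [h3]
    push_cast
    nlinarith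
  · have e1 : -(((3200 : ℕ) : ℝ) * -Real.log dd * 200 ^ 0) / 2 =
        -(((1600 : ℕ) : ℝ) * -Real.log dd * 200 ^ 0) := by
      push_cast
      ring
    change 2 * Real.exp (-(((3200 : ℕ) : ℝ) * -Real.log dd * 200 ^ 0) / 2) ≤ Θ / 2
    rw [e1, exp_m hdd0]
    have h1 : dj dd 0 ^ 1600 ≤ dd := by
      calc dj dd 0 ^ 1600 ≤ dj dd 0 ^ 1 :=
            pow_le_pow_of_le_one (hD0 0).le (by linarith [hD2 0]) (by norm_num)
        _ = dj dd 0 := pow_one _
        _ ≤ dd := hD1 0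
    linarith

end Vale.Agent.P331.H873
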