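import Vale.Agent.P331.H873.Charge
import Vale.Agent.P331.H873.NumDef
import Vale.Agent.P331.H873.RowCH

/-!
# Row SUM of line A, from the numbers (row NUM)
-/

set_option autoImplicit false
set_option linter.unusedSectionVars false
set_option linter.unusedVariables false

namespace Vale.Agent.P331.H873

open Finset Vale.Agent.P331.H489 Vale.Agent.P331 Vale.Agent.P331.H316
open scoped Classical

/-- `∑_(j<n) e^(-m_j/2) ≤ 2 e^(-m_0/2)` if `m_(j+1) ≥ m_j + 2` -/
theorem sum_exp_range {m : ℕ → ℝ} (h : ∀ j, m j + 2 ≤ m (j + 1)) :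
    ∀ n k : ℕ, ∑ j ∈ range n, Real.exp (-m (k + j) / 2) ≤ 2 * Real.exp (-m k / 2) := by
  intro n
  induction n with
  | zero =>
    intro k
    simp only [range_zero, sum_empty]
    positivity
  | succ n ih =>
    intro k
    rw [sum_range_succ']
    have h1 : ∑ j ∈ range n, Real.exp (-m (k + (j + 1)) / 2) ≤ 2 * Real.exp (-m (k + 1) / 2) := by
      have := ih (k + 1)
      refine le_trans (le_of_eq ?_) this
      refine sum_congr rfl fun j _ => ?_
      rw [show k + (j + 1) = k + 1 + j by ring]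
    have h2 : Real.exp (-m (k + 1) / 2) ≤ Real.exp (-m k / 2) * Real.exp (-1) := by
      rw [← Real.exp_add]
      refine Real.exp_le_exp.2 ?_
      have := h k
      linarith
    have h3 : Real.exp (-1) ≤ 1 / 2 := by
      rw [Real.exp_neg]
      have : (2 : ℝ) ≤ Real.exp 1 := by
        have := Real.add_one_le_exp (1 : ℝ)
        linarith
      rw [one_div]
      exact inv_anti₀ (by norm_num) this
    have h4 : Real.exp (-m k / 2) * Real.exp (-1) ≤ Real.exp (-m k / 2) * (1 / 2) :=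
      mul_le_mul_of_nonneg_left h3 (Real.exp_nonneg _)
    rw [add_zero]
    linarith

theorem Jn_nonneg {E : Type} [Fintype E] (D : Finset E → Prop) {Θ : ℝ} (h0 : 0 ≤ Θ) (h1 : Θ ≤ 1)
    (b : E) : 0 ≤ Jn D Θ b :=
  thin_nonneg h0 h1 _ fun _ => ind_nonneg _

theorem rowSUM_of (h : RowNUM) : RowSUM := by
  intro hONE hCORE hSTEP hCH
  obtain ⟨q, hq, hnum⟩ := h
  obtain ⟨t, ht0, ht2, x₀, hx₀, hx₁, C, hC, hone⟩ := hONE q (by omega)
  obtain ⟨p, s₁, th, P, m, ga, bet, lam', zet', N⟩ := hnum t x₀ C ht0 ht2 hx₀ hx₁ hC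
  have hg := N.hg
  have hg4 := N.hg4
  have hn := N.hn
  have hn4 := N.hn4
  have hp := N.hp
  have hs := N.hs
  have hsum := N.hsum
  have hxr0 : 0 ≤ xr s₁ P := by
    unfold xr
    have : 0 ≤ 1 - P.g := by linarith
    positivity
  have htp : 0 < P.t := by rw [N.ht]; exact ht0
  have htp1 : P.t ≤ 1 / 2 := by rw [N.ht]; exact ht2
  have hT0 : 0 < Th s₁ (1 / 4) P := by
    unfold Th; positivity
  have hT1 : Th s₁ (1 / 4) P < 1 := by
    unfold Th
    have := N.hxr
    linarith
  have hOne : OneC q p (xr s₁ P) (1 / 4) P.t th := by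
    rw [N.ht]
    exact hone _ _ _ hxr0 N.hxr hp.le N.hpx N.hth.le N.hth1 N.hC
  refine ⟨p, s₁, 1 / 4, P, hp, hs, by norm_num, hsum, hg, by linarith, hn, by linarith, htp,
    by linarith, hT0, hT1, N.hkap0, N.heps1 0, N.hlam1 0, N.hzet1 0,
    fun j => ⟨N.heps j, N.heps1 j, (N.hlam j).le, N.hlam1 j, (N.hzet j).le, N.hzet1 j⟩, N.hkap, N.hlim, ?_⟩
  intro E _ D hD b m'
  have hJ : 0 ≤ Jn D (Th s₁ (1 / 4) P) b := Jn_nonneg D hT0.le hT1.le b
  have hlev : ∀ j, PR p s₁ (1 / 4) (fun V R I => ind (Ev D P R I j b V)) ≤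
      Real.exp (-m j / 2) * Jn D (Th s₁ (1 / 4) P) b := by
    intro j
    have hc0 : 0 < P.eta (j + 1) * (th ^ P.kap (j + 1) * P.dl (j + 1)) ^ (2 * q) := by
      have h1 := N.heta (j + 1)
      have h2 := N.hth
      have h3 := N.hdl (j + 1)
      positivity
    have hBj : 0 ≤ coreB q s₁ th P ga j := by
      unfold coreB
      have h1 := N.heta j
      have h2 := N.hth
      have h3 := N.hdl j
      have h4 := N.hga j
      have h5 : 0 < 1 - Th s₁ (1 / 4) P := by linarith
      positivity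
    -- the step
    have hstep := hSTEP p s₁ (1 / 4) (coreB q s₁ th P ga j) (bet j) (lam' j) (zet' j) P hp hs
      (by norm_num) hsum hg hg4 hn hn4 N.hgn htp.le (by linarith) (N.hbet j) (N.hlam' j)
      (N.hzet' j) hBj N.hpg E D hD j (N.hlam (j + 1)).le (N.hlam j) (N.hzet (j + 1)).le (N.hzet j)
      (N.hdl j).le (N.hepsj j) (fun K st hK hst =>
        hCORE q p s₁ (1 / 4) th P (by omega) hp.le hs.le (by norm_num) hsum hg.le (by linarith)
          hn.le (by linarith) htp.le (by linarith) N.hth N.hth1 hT0 hT1 hOne E D hD j (ga j)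
          (N.hga j) (N.hdl j) (N.heta j).le K st hK hst)
    have h1 : PR (E := E) p s₁ (1 / 4) (fun V R I => ind (∃ X ⊆ V, Bad D P R I j X)) ≤
        Real.exp (-m j) := by
      have h2 := hstep.trans (N.hstep j)
      exact le_of_mul_le_mul_left h2 (N.hzet j)
    have h2 : PR p s₁ (1 / 4) (fun V R I => ind (Ev D P R I j b V)) ≤ Real.exp (-m j) := by
      refine le_trans (PR_mono hp.le hs.le (by norm_num) hsum fun V R I => ind_mono ?_) h1
      rintro ⟨X, hX, hb, hc, hbad⟩
      exact ⟨X, hX, hbad⟩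
    -- the blame
    have h3 := hCH q p s₁ (1 / 4) th P (by omega) hp.le hs.le (by norm_num) hsum hg.le
      (by linarith) hn.le (by linarith) htp.le (by linarith) N.hth.le N.hth1 hOne E D b (j + 1)
      (N.hdl (j + 1)).le (N.heta (j + 1)).le
    have h4 : PR p s₁ (1 / 4) (fun V R I => ind (Ev D P R I j b V)) ≤
        PR p s₁ (1 / 4) (fun V R I => ind (∃ X ⊆ V, sig D P R I (j + 1) X b)) := by
      refine PR_mono hp.le hs.le (by norm_num) hsum fun V R I => ind_mono ?_
      rintro ⟨X, hX, hb, hc, hbad⟩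
      refine ⟨X, hX, ?_⟩
      have := sig_of_mem_core D P hg.le (by linarith) hn.le (by linarith) R I (j + 1) X b
        (by rw [hc]; exact hb)
      rwa [hc] at this
    have h5 : PR p s₁ (1 / 4) (fun V R I => ind (Ev D P R I j b V)) ≤
        (P.eta (j + 1) * (th ^ P.kap (j + 1) * P.dl (j + 1)) ^ (2 * q))⁻¹ *
          Jn D (Th s₁ (1 / 4) P) b ^ q := by
      rw [inv_mul_eq_div, le_div_iff₀ hc0, mul_comm]
      exact (mul_le_mul_of_nonneg_left h4 hc0.le).trans h3
    refine charge_exp (q := q) (by omega) hJ (inv_nonneg.2 hc0.le) h2 h5 ?_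
    have h6 := N.hcharge j
    have h7 : Real.exp (((q : ℝ) - 2) * m j / 2) =
        (Real.exp (-((q - 2 : ℝ) * m j / 2)))⁻¹ := by
      rw [Real.exp_neg, inv_inv]
    rw [h7]
    exact inv_anti₀ (Real.exp_pos _) h6
  calc ∑ j ∈ range m', PR p s₁ (1 / 4) (fun V R I => ind (Ev D P R I j b V))
      ≤ ∑ j ∈ range m', Real.exp (-m j / 2) * Jn D (Th s₁ (1 / 4) P) b :=
        sum_le_sum fun j _ => hlev j
    _ = (∑ j ∈ range m', Real.exp (-m j / 2)) * Jn D (Th s₁ (1 / 4) P) b := by rw [sum_mul]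
    _ ≤ Th s₁ (1 / 4) P / 2 * Jn D (Th s₁ (1 / 4) P) b := by
      refine mul_le_mul_of_nonneg_right ?_ hJ
      have h1 := sum_exp_range N.hm m' 0
      simp only [zero_add] at h1
      exact h1.trans N.hfirst

end Vale.Agent.P331.H873
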