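import Vale.Agent.P331.H873.RowSUM
import Vale.Agent.P331.H873.RowNUM

/-!
# Row SUM of line A
-/

namespace Vale.Agent.P331.H873

open Vale.Agent.P331.H316

theorem rowSUM : RowSUM := rowSUM_of rowNUM

end Vale.Agent.P331.H873
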